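import Mathlib
import Vale.Agent.Lib.P183.Group

namespace Vale.Agent.Results.P183.L7Interval

/-- The order of the seven-element lattice `L7` on `{0,…,6}`: `0` is the bottom, `6` the top,
the atoms are `1, 2, 5`, the coatoms are `3, 4, 5`, and `1 < 3`, `2 < 3`, `2 < 4`. -/
def L7le (i j : Fin 7) : Prop :=
  i = j ∨ i = 0 ∨ j = 6 ∨ (i = 1 ∧ j = 3) ∨ (i = 2 ∧ j = 3) ∨ (i = 2 ∧ j = 4)

theorem leB_iff : ∀ i j : Fin 7, Vale.Agent.Lib.P183.leB i.val j.val = true ↔ L7le i j := by
  unfold L7le
  decide +kernel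

open Vale.Agent.Lib.P183 in
/-- The seven-element lattice `L7` is isomorphic to an interval `[H, G]` in the subgroup lattice
of a finite group `G`. -/
theorem result : ∃ (G : Type) (_ : Group G) (_ : Finite G) (H : Subgroup G)
    (f : Fin 7 → {K : Subgroup G // H ≤ K}), Function.Bijective f ∧
    ∀ i j : Fin 7, (f i).1 ≤ (f j).1 ↔ L7le i j := by
  obtain ⟨f, hf, hle⟩ := main_interval
  refine ⟨Subgroup.closure (Set.range sigA), inferInstance, inferInstance,
    MulAction.stabilizer (Subgroup.closure (Set.range sigA)) p0, f, hf, fun i j => ?_⟩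
  rw [← leB_iff, ← hle]
  exact Iff.rfl

end Vale.Agent.Results.P183.L7Interval
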