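import Vale.Agent.Lib.P183.BK.Sound2

/-!
# P183: the seven element lattice `L7` is representable

`L7 = {bot, j1, j2, a, b, c, top}` with `j1 < a`, `j2 < a`, `j1 < b` (and `c` both an atom and a
coatom) is the congruence lattice of a finite algebra (three unary operations on a set with
`36 * 960 = 34560` elements: the action of `Sp(6,2)` on the cosets of the normaliser `7:6` of a
Sylow 7-subgroup), and it is an interval `[H, G]` in the subgroup lattice of a finite group.
-/

namespace Vale.Agent.Results.P183.L7Rep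

open Vale.Agent.Lib.P183 Vale.Agent.Lib.P183.BK

theorem result :
    (∃ (A : Type) (_ : Finite A) (_ : Nonempty A) (ops : Fin 3 → A → A),
      Nonempty (L7 ≃o UCon ops)) ∧
    (∃ (G : Type) (_ : Group G) (_ : Finite G) (H : Subgroup G),
      Nonempty (L7 ≃o Set.Ici H)) := by
  obtain ⟨e⟩ := main_iso
  refine ⟨⟨XX, inferInstance, ⟨x0⟩, fun i => (sg i : XX → XX), ⟨e⟩⟩, ?_⟩
  obtain ⟨e'⟩ := ucon_orderIso_interval sg x0 htr
  exact ⟨GG, inferInstance, inferInstance, MulAction.stabilizer GG x0, ⟨e.trans e'⟩⟩

end Vale.Agent.Results.P183.L7Rep
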