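import Mathlib
import Vale.Agent.Lib.P183.Logic2

namespace Vale.Agent.Results.P183.L7Representable

/-- A finite algebra: a nonempty finite carrier together with a finite list of total operations
of finite arity (an operation of arity `n` is a map `(Fin n → carrier) → carrier`). -/
structure FinAlgebra where
  carrier : Type
  finite : Finite carrier
  nonempty : Nonempty carrier
  ops : List (Σ n : ℕ, (Fin n → carrier) → carrier)

/-- An equivalence relation on the carrier is a congruence if it is compatible with every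
operation of the algebra. -/
def FinAlgebra.IsCongruence (A : FinAlgebra) (r : Setoid A.carrier) : Prop :=
  ∀ o ∈ A.ops, ∀ u v : Fin o.1 → A.carrier, (∀ k, r (u k) (v k)) → r (o.2 u) (o.2 v)

/-- `Con A`: all congruences of `A`. -/
def FinAlgebra.Con (A : FinAlgebra) : Type := {r : Setoid A.carrier // A.IsCongruence r}

/-- Inclusion of congruences. -/
def FinAlgebra.Con.Incl {A : FinAlgebra} (r s : A.Con) : Prop :=
  ∀ a b : A.carrier, r.1 a b → s.1 a b

/-- The order of the seven-element lattice `L7` on `{0,…,6}`: `0` is the bottom, `6` the top,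
the atoms are `1, 2, 5`, the coatoms are `3, 4, 5`, and `1 < 3`, `2 < 3`, `2 < 4`. -/
def L7le (i j : Fin 7) : Prop :=
  i = j ∨ i = 0 ∨ j = 6 ∨ (i = 1 ∧ j = 3) ∨ (i = 2 ∧ j = 3) ∨ (i = 2 ∧ j = 4)

theorem leB_iff : ∀ i j : Fin 7, Vale.Agent.Lib.P183.leB i.val j.val = true ↔ L7le i j := by
  unfold L7le
  decide +kernel

open Vale.Agent.Lib.P183 in
/-- The seven-element lattice `L7` is isomorphic to the congruence lattice of a finite algebra. -/
theorem result : ∃ (A : FinAlgebra) (f : Fin 7 → A.Con), Function.Bijective f ∧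
    ∀ i j : Fin 7, (f i).Incl (f j) ↔ L7le i j := by
  obtain ⟨f, hf, hle⟩ := main_leB
  let A : FinAlgebra := ⟨Pt, inferInstance, ⟨p0⟩,
    (List.finRange 10).map (fun i => ⟨1, fun u => opsA i (u 0)⟩)⟩
  have key : ∀ r : Setoid Pt, A.IsCongruence r ↔ ∀ i a b, r a b → r (opsA i a) (opsA i b) := by
    intro r
    constructor
    · intro h i a b hab
      exact h ⟨1, fun u => opsA i (u 0)⟩ (List.mem_map.2 ⟨i, List.mem_finRange i, rfl⟩)
        (fun _ => a) (fun _ => b) (fun _ => hab)
    · intro h o ho u v huv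
      obtain ⟨i, _, rfl⟩ := List.mem_map.1 ho
      exact h i _ _ (huv 0)
  refine ⟨A, fun i => ⟨(f i).1, (key _).2 (f i).2⟩, ⟨?_, ?_⟩, ?_⟩
  · intro i j hij
    have h1 : (f i).1 = (f j).1 := congrArg (fun x : A.Con => x.1) hij
    exact hf.1 (Subtype.ext h1)
  · intro θ
    obtain ⟨i, hi⟩ := hf.2 ⟨θ.1, (key _).1 θ.2⟩
    have h1 : (f i).1 = θ.1 := congrArg (fun x : CA => x.1) hi
    exact ⟨i, Subtype.ext h1⟩
  · intro i j
    rw [← leB_iff, ← hle, ucon_le_iff]
    exact Iff.rfl

end Vale.Agent.Results.P183.L7Representable
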